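import Mathlib

/-!
# P084 (Tingley's problem): antipodes at rotund points, strictly convex domains

Let `X`, `Y` be real normed spaces of ANY dimension and `f : S_X → S_Y` a surjective isometry
between the unit spheres. Call `x ∈ S_X` a rotund point if `x` is the only unit vector `w` with
`‖x + w‖ = 2` (equivalently, `-x` is the only point of `S_X` at distance `2` from `x`).

* If `x` is a rotund point of `S_X`, then `f (-x) = -f x` and `f x` is a rotund point of `S_Y`.
* Consequently, if `X` is strictly convex (every point of `S_X` is rotund), then `f (-x) = -f x`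
  for every `x ∈ S_X`, and `Y` is strictly convex.

Tingley (1987) proved the antipodal identity for finite-dimensional `X, Y`; here no dimension or
completeness assumption is made, at the price of rotundity at the point considered.

Proof: given a rotund `x`, surjectivity gives `z` with `f z = -f x`; then
`‖z - x‖ = ‖f z - f x‖ = 2`, so `z = -x`. The points of `S_Y` at distance `2` from `f x` are the
images of the points of `S_X` at distance `2` from `x`, so there is only one.
-/

namespace Vale.Agent.Results.P084.H19_StrictlyConvex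

theorem result {X Y : Type*} [NormedAddCommGroup X] [NormedSpace ℝ X]
    [NormedAddCommGroup Y] [NormedSpace ℝ Y]
    (f : Metric.sphere (0 : X) 1 → Metric.sphere (0 : Y) 1)
    (hiso : Isometry f) (hsurj : Function.Surjective f) :
    (∀ x : Metric.sphere (0 : X) 1,
      (∀ w : X, ‖w‖ = 1 → ‖(x : X) + w‖ = 2 → w = x) →
        f (-x) = -f x ∧ ∀ v : Y, ‖v‖ = 1 → ‖(f x : Y) + v‖ = 2 → v = f x) ∧
    (StrictConvexSpace ℝ X →
      (∀ x : Metric.sphere (0 : X) 1, f (-x) = -f x) ∧ StrictConvexSpace ℝ Y) := by
  -- at a rotund point `x`, the only point of the sphere at distance `2` from `x` is `-x`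
  have keyX : ∀ x : Metric.sphere (0 : X) 1,
      (∀ w : X, ‖w‖ = 1 → ‖(x : X) + w‖ = 2 → w = x) →
      ∀ z : Metric.sphere (0 : X) 1, dist z x = 2 → z = -x := by
    intro x hx z h
    have hz : ‖-(z : X)‖ = 1 := by simp
    have h2 : ‖(x : X) + (-(z : X))‖ = 2 := by
      rw [← sub_eq_add_neg, ← dist_eq_norm, dist_comm]
      exact h
    have h3 := hx (-(z : X)) hz h2
    apply Subtype.ext
    simp only [coe_neg_sphere]
    rw [← h3, neg_neg]
  have main : ∀ x : Metric.sphere (0 : X) 1,
      (∀ w : X, ‖w‖ = 1 → ‖(x : X) + w‖ = 2 → w = x) →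
        f (-x) = -f x ∧ ∀ v : Y, ‖v‖ = 1 → ‖(f x : Y) + v‖ = 2 → v = f x := by
    intro x hx
    have anti : f (-x) = -f x := by
      obtain ⟨z, hz⟩ := hsurj (-f x)
      have hd : dist z x = 2 := by
        rw [← hiso.dist_eq, hz]
        have hfx : ‖((f x : Metric.sphere (0 : Y) 1) : Y)‖ = 1 := by simp
        rw [Subtype.dist_eq]
        simp only [coe_neg_sphere]
        rw [dist_eq_norm, ← neg_add', norm_neg, ← two_smul ℝ, norm_smul, hfx]
        norm_num
      rw [← keyX x hx z hd, hz]
    refine ⟨anti, ?_⟩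
    intro v hv hsum
    have hv' : ‖-v‖ = 1 := by rw [norm_neg]; exact hv
    obtain ⟨b, hb⟩ := hsurj ⟨-v, by simpa using hv'⟩
    have hd : dist b x = 2 := by
      rw [← hiso.dist_eq, hb, Subtype.dist_eq]
      show dist (-v) ((f x : Metric.sphere (0 : Y) 1) : Y) = 2
      rw [dist_comm, dist_eq_norm, sub_neg_eq_add]
      exact hsum
    have hbx := keyX x hx b hd
    rw [hbx, anti] at hb
    have h4 := congrArg (fun w : Metric.sphere (0 : Y) 1 => (w : Y)) hb
    simp only [coe_neg_sphere] at h4
    exact (neg_injective h4).symm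
  refine ⟨main, ?_⟩
  intro hsc
  have hrot : ∀ x : Metric.sphere (0 : X) 1,
      ∀ w : X, ‖w‖ = 1 → ‖(x : X) + w‖ = 2 → w = x := by
    intro x w hw hsum
    have hx : ‖(x : X)‖ = 1 := by simp
    have h2 : ‖(x : X) + w‖ = ‖(x : X)‖ + ‖w‖ := by rw [hsum, hx, hw]; norm_num
    have hray : SameRay ℝ (x : X) w := sameRay_iff_norm_add.mpr h2
    exact (hray.eq_of_norm_eq (by rw [hx, hw])).symm
  refine ⟨fun x => (main x (hrot x)).1, ?_⟩
  apply StrictConvexSpace.of_norm_add_ne_two
  intro u v hu hv huv hsum
  apply huv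
  obtain ⟨a, ha⟩ := hsurj ⟨u, by simpa using hu⟩
  have h5 := (main a (hrot a)).2 v hv (by rw [ha]; exact hsum)
  rw [ha] at h5
  exact h5.symm

end Vale.Agent.Results.P084.H19_StrictlyConvex
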